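import Vale.Agent.P190.Bog

namespace Vale.Agent.Results.P190.NoSmallCM

universe u

theorem result :
    ∃ (R : Type) (_ : CommRing R) (_ : IsDomain R) (_ : IsNoetherianRing R) (_ : IsLocalRing R)
      (_ : IsAdicComplete (IsLocalRing.maximalIdeal R) R) (_ : Algebra ℚ R),
      ringKrullDim R = 3 ∧
      ∀ (M : Type u) [AddCommGroup M] [Module R M] [Module.Finite R M] [Nontrivial M]
        (rs : List R), (∀ r ∈ rs, r ∈ IsLocalRing.maximalIdeal R) →
        RingTheory.Sequence.IsRegular M rs → (rs.length : WithBot ℕ∞) < ringKrullDim R := by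
  obtain ⟨R, i1, i2, i3, i4, i5, i6, hd, h⟩ := Vale.Agent.P190.exists_ring.{u}
  exact ⟨R, i1, i2, i4, i3, i5, i6, hd, fun M _ _ _ _ rs hm hr => h M rs hm hr.toIsWeaklyRegular⟩

end Vale.Agent.Results.P190.NoSmallCM
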