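import Vale.Agent.P190.Bog

namespace Vale.Agent.Results.P190.SmallCMFalse

/-- the depth of `M` over the local ring `R`: the supremum of the lengths of the `M`-regular
sequences contained in the maximal ideal -/
noncomputable def depth (R M : Type) [CommRing R] [IsLocalRing R] [AddCommGroup M] [Module R M] :
    ℕ∞ :=
  ⨆ (rs : List R) (_ : ∀ r ∈ rs, r ∈ IsLocalRing.maximalIdeal R)
    (_ : RingTheory.Sequence.IsRegular M rs), (rs.length : ℕ∞)

theorem result :
    ¬ ∀ (R : Type) [CommRing R] [IsDomain R] [IsNoetherianRing R] [IsLocalRing R]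
      [IsAdicComplete (IsLocalRing.maximalIdeal R) R],
      ∃ (M : Type) (_ : AddCommGroup M) (_ : Module R M),
        Module.Finite R M ∧ Nontrivial M ∧ ((depth R M : ℕ∞) : WithBot ℕ∞) = ringKrullDim R := by
  intro H
  obtain ⟨R, i1, i2, i3, i4, i5, i6, hd, h⟩ := Vale.Agent.P190.exists_ring.{0}
  obtain ⟨M, j1, j2, j3, j4, hM⟩ := H R
  have h2 : depth R M ≤ 2 := by
    refine iSup_le fun rs => iSup_le fun hm => iSup_le fun hr => ?_
    have h3 := h M rs hm hr.toIsWeaklyRegular
    rw [hd] at h3
    have h4 : rs.length < 3 := by exact_mod_cast h3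
    exact_mod_cast Nat.le_of_lt_succ h4
  rw [hd] at hM
  have h5 : depth R M = 3 := WithBot.coe_injective hM
  rw [h5] at h2
  exact absurd h2 (by decide)

end Vale.Agent.Results.P190.SmallCMFalse
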